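import Vale.Agent.Results.P154.A000000_KSTight34Plus
import Vale.Agent.P154.C.Inst

namespace Vale.Agent.Results.P154.A0000000_KSTight34Ent

open Vale.Agent.P154Q Vale.Agent.P154C Filter Topology
open Vale.Agent.P154 (gw)
open Vale.Agent.Results.P154.A000000_KSTight34Plus (regular3' gw3' regular4' gw4')

theorem regular3'' (d : ℕ) (hd : 2 ≤ d) (lam : ℝ)
    (hl : -(11 / 56) < lam ∨ -1 ≤ (d : ℝ) * lam ∨
      (-(1 / 2) < lam ∧ 3 * (d : ℝ) * lam ^ 2 < 2 + lam))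
    (hKS : (d : ℝ) * lam ^ 2 ≤ 1) : Tendsto (aSeq 3 d lam) atTop (𝓝 0) := by
  rcases hl with hl | hl | ⟨hl, hc⟩
  · exact regular3' d hd lam (Or.inl hl) hKS
  · exact regular3' d hd lam (Or.inr hl) hKS
  · rcases le_or_gt lam 0 with h0 | h0
    · exact ent3_reg d hl h0 hc
    · exact regular3' d hd lam (Or.inl (by linarith)) hKS

theorem gw3'' {d lam : ℝ} (hd : 0 < d) (hlo : -(1 / 2) ≤ lam) (h1 : lam ≤ 1)
    (hl : -(11 / 56) < lam ∨ -1 ≤ d * lam ∨ (-(1 / 2) < lam ∧ 3 * d * lam ^ 2 < 2 + lam))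
    (hKS : d * lam ^ 2 ≤ 1) :
    (∀ n, Summable fun T => gw d n T * aT 3 lam n T) ∧ Tendsto (aGW 3 d lam) atTop (𝓝 0) := by
  rcases hl with hl | hl | ⟨hl, hc⟩
  · exact gw3' hd hlo h1 (Or.inl hl) hKS
  · exact gw3' hd hlo h1 (Or.inr hl) hKS
  · rcases le_or_gt lam 0 with h0 | h0
    · exact ent3_gw hd hl h0 hc
    · exact gw3' hd hlo h1 (Or.inl (by linarith)) hKS

theorem regular4'' (d : ℕ) (hd : 2 ≤ d) (lam : ℝ) (hlo : -(1 / 3) ≤ lam)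
    (hl : -1 ≤ (d : ℝ) * lam ∨ (-(1 / 3) < lam ∧ 2 * (d : ℝ) * lam ^ 2 < 1 + lam))
    (hKS : (d : ℝ) * lam ^ 2 ≤ 1) : Tendsto (aSeq 4 d lam) atTop (𝓝 0) := by
  rcases hl with hl | ⟨hl, hc⟩
  · exact regular4' d hd lam hlo hl hKS
  · rcases le_or_gt lam 0 with h0 | h0
    · exact ent4_reg d hl h0 hc
    · refine regular4' d hd lam hlo ?_ hKS
      have : (0 : ℝ) ≤ d := Nat.cast_nonneg d
      nlinarith

theorem gw4'' {d lam : ℝ} (hd : 0 < d) (hlo : -(1 / 3) ≤ lam) (h1 : lam ≤ 1)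
    (hl : -1 ≤ d * lam ∨ (-(1 / 3) < lam ∧ 2 * d * lam ^ 2 < 1 + lam)) (hKS : d * lam ^ 2 ≤ 1) :
    (∀ n, Summable fun T => gw d n T * aT 4 lam n T) ∧ Tendsto (aGW 4 d lam) atTop (𝓝 0) := by
  rcases hl with hl | ⟨hl, hc⟩
  · exact gw4' hd hlo h1 hl hKS
  · rcases le_or_gt lam 0 with h0 | h0
    · exact ent4_gw hd hl h0 hc
    · refine gw4' hd hlo h1 ?_ hKS
      nlinarith

/-- Potts channel with three or four states, nonreconstruction up to and including the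
Kesten-Stigum bound `d * lam ^ 2 ≤ 1`, on the rooted `d`-ary tree for every integer `d ≥ 2` and on the
Galton-Watson tree with Poisson(`d`) offspring for every real `d > 0` (the tree weights sum to one, the
series defining `a_n` converges).
Four states: every admissible `lam` with `d * lam ≥ -1` (this contains all `lam ≥ 0`) or `2 d lam^2 < 1 + lam`; hence every
admissible `lam` of either sign if `d ≤ 3`.
Three states: every admissible `lam` with `lam > -11/56` or `d * lam ≥ -1` or `3 d lam^2 < 2 + lam`; hence every admissible `lam`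
of either sign if `d ≤ 2` or `d ≥ 26`. -/
theorem result :
    (∀ d : ℝ, 0 < d → ∀ n, HasSum (gw d n) 1) ∧
    (∀ d : ℕ, 2 ≤ d → ∀ lam : ℝ, -(1 / 3) ≤ lam →
      (-1 ≤ (d : ℝ) * lam ∨ (-(1 / 3) < lam ∧ 2 * (d : ℝ) * lam ^ 2 < 1 + lam)) →
      (d : ℝ) * lam ^ 2 ≤ 1 → Tendsto (aSeq 4 d lam) atTop (𝓝 0)) ∧
    (∀ d lam : ℝ, 0 < d → -(1 / 3) ≤ lam → lam ≤ 1 →
      (-1 ≤ d * lam ∨ (-(1 / 3) < lam ∧ 2 * d * lam ^ 2 < 1 + lam)) → d * lam ^ 2 ≤ 1 →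
      (∀ n, Summable fun T => gw d n T * aT 4 lam n T) ∧ Tendsto (aGW 4 d lam) atTop (𝓝 0)) ∧
    (∀ d : ℕ, 2 ≤ d → d ≤ 3 → ∀ lam : ℝ, -(1 / 3) ≤ lam → (d : ℝ) * lam ^ 2 ≤ 1 →
      Tendsto (aSeq 4 d lam) atTop (𝓝 0)) ∧
    (∀ d lam : ℝ, 0 < d → d ≤ 3 → -(1 / 3) ≤ lam → lam ≤ 1 → d * lam ^ 2 ≤ 1 →
      (∀ n, Summable fun T => gw d n T * aT 4 lam n T) ∧ Tendsto (aGW 4 d lam) atTop (𝓝 0)) ∧
    (∀ d : ℕ, 2 ≤ d → ∀ lam : ℝ,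
      (-(11 / 56) < lam ∨ -1 ≤ (d : ℝ) * lam ∨
        (-(1 / 2) < lam ∧ 3 * (d : ℝ) * lam ^ 2 < 2 + lam)) →
      (d : ℝ) * lam ^ 2 ≤ 1 → Tendsto (aSeq 3 d lam) atTop (𝓝 0)) ∧
    (∀ d lam : ℝ, 0 < d → -(1 / 2) ≤ lam → lam ≤ 1 →
      (-(11 / 56) < lam ∨ -1 ≤ d * lam ∨ (-(1 / 2) < lam ∧ 3 * d * lam ^ 2 < 2 + lam)) →
      d * lam ^ 2 ≤ 1 →
      (∀ n, Summable fun T => gw d n T * aT 3 lam n T) ∧ Tendsto (aGW 3 d lam) atTop (𝓝 0)) ∧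
    (∀ lam : ℝ, -(1 / 2) ≤ lam → 2 * lam ^ 2 ≤ 1 → Tendsto (aSeq 3 2 lam) atTop (𝓝 0)) ∧
    (∀ d lam : ℝ, 0 < d → d ≤ 2 → -(1 / 2) ≤ lam → lam ≤ 1 → d * lam ^ 2 ≤ 1 →
      (∀ n, Summable fun T => gw d n T * aT 3 lam n T) ∧ Tendsto (aGW 3 d lam) atTop (𝓝 0)) ∧
    (∀ d : ℕ, 26 ≤ d → ∀ lam : ℝ, (d : ℝ) * lam ^ 2 ≤ 1 →
      Tendsto (aSeq 3 d lam) atTop (𝓝 0)) ∧
    (∀ d lam : ℝ, 26 ≤ d → d * lam ^ 2 ≤ 1 →
      (∀ n, Summable fun T => gw d n T * aT 3 lam n T) ∧ Tendsto (aGW 3 d lam) atTop (𝓝 0)) := by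
  obtain ⟨r1, -, -, r4, r5, -, -, r8, r9, r10, r11⟩ :=
    Vale.Agent.Results.P154.A000000_KSTight34Plus.result
  exact ⟨r1, regular4'', fun d lam hd hlo h1 hl hKS => gw4'' hd hlo h1 hl hKS, r4, r5, regular3'',
    fun d lam hd hlo h1 hl hKS => gw3'' hd hlo h1 hl hKS, r8, r9, r10, r11⟩

end Vale.Agent.Results.P154.A0000000_KSTight34Ent
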