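import Vale.Agent.Results.P154.A00000_KSTight34Full
import Vale.Agent.P154.C.GWc

namespace Vale.Agent.Results.P154.A000000_KSTight34Plus

open Vale.Agent.P154Q Vale.Agent.P154N Vale.Agent.P154C Filter Topology
open Vale.Agent.P154 (gw hasSum_gw)
open Vale.Agent.Results.P154.A00000_KSTight34Full (regular3 gw3 lam_range)

theorem lo3 {lam : ℝ} (h : -(1 / 2) ≤ lam) : -(1 / (((3 : ℕ) : ℝ) - 1)) ≤ lam := by
  norm_num
  linarith

theorem lo4 {lam : ℝ} (h : -(1 / 3) ≤ lam) : -(1 / (((4 : ℕ) : ℝ) - 1)) ≤ lam := by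
  norm_num
  linarith

theorem regular3' (d : ℕ) (hd : 2 ≤ d) (lam : ℝ) (hl : -(11 / 56) < lam ∨ -1 ≤ (d : ℝ) * lam)
    (hKS : (d : ℝ) * lam ^ 2 ≤ 1) : Tendsto (aSeq 3 d lam) atTop (𝓝 0) := by
  rcases hl with hl | hl
  · exact regular3 d hd lam hl hKS
  · rcases le_or_gt 0 lam with h0 | h0
    · exact regular3 d hd lam (by linarith) hKS
    · have hd' : (2 : ℝ) ≤ d := by exact_mod_cast hd
      refine regular_coupling d hd lam (lo3 (by nlinarith)) (by linarith) h0.ne ?_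
      rw [abs_of_neg h0]
      linarith

theorem gw3' {d lam : ℝ} (hd : 0 < d) (hlo : -(1 / 2) ≤ lam) (h1 : lam ≤ 1)
    (hl : -(11 / 56) < lam ∨ -1 ≤ d * lam) (hKS : d * lam ^ 2 ≤ 1) :
    (∀ n, Summable fun T => gw d n T * aT 3 lam n T) ∧ Tendsto (aGW 3 d lam) atTop (𝓝 0) := by
  rcases hl with hl | hl
  · exact gw3 hd hl h1 hKS
  · rcases le_or_gt 0 lam with h0 | h0
    · exact gw3 hd (by linarith) h1 hKS
    · refine gw_coupling hd (lo3 hlo) h1 ?_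
      rw [abs_of_neg h0]
      linarith

theorem regular4' (d : ℕ) (hd : 2 ≤ d) (lam : ℝ) (hlo : -(1 / 3) ≤ lam)
    (hl : -1 ≤ (d : ℝ) * lam) (hKS : (d : ℝ) * lam ^ 2 ≤ 1) :
    Tendsto (aSeq 4 d lam) atTop (𝓝 0) := by
  rcases le_or_gt 0 lam with h0 | h0
  · exact Vale.Agent.Results.P154.A00000_KSTight34Full.result.1 d hd lam h0 hKS
  · refine regular_coupling d hd lam (lo4 hlo) (by linarith) h0.ne ?_
    rw [abs_of_neg h0]
    linarith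

theorem gw4' {d lam : ℝ} (hd : 0 < d) (hlo : -(1 / 3) ≤ lam) (h1 : lam ≤ 1)
    (hl : -1 ≤ d * lam) (hKS : d * lam ^ 2 ≤ 1) :
    (∀ n, Summable fun T => gw d n T * aT 4 lam n T) ∧ Tendsto (aGW 4 d lam) atTop (𝓝 0) := by
  rcases le_or_gt 0 lam with h0 | h0
  · exact Vale.Agent.Results.P154.A00000_KSTight34Full.result.2.2.1 d lam hd h0 h1 hKS
  · refine gw_coupling hd (lo4 hlo) h1 ?_
    rw [abs_of_neg h0]
    linarith

/-- Potts channel with three or four states, nonreconstruction up to and including the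
Kesten-Stigum bound `d * lam ^ 2 ≤ 1`, on the rooted `d`-ary tree for every integer `d ≥ 2` and on the
Galton-Watson tree with Poisson(`d`) offspring for every real `d > 0` (the tree weights sum to one, the
series defining `a_n` converges).
Four states: every admissible `lam` with `d * lam ≥ -1` (this contains all `lam ≥ 0`); hence every admissible `lam`
of either sign if `d ≤ 3`.
Three states: every admissible `lam` with `lam > -11/56` or `d * lam ≥ -1`; hence every admissible `lam` of either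
sign if `d ≤ 2` or `d ≥ 26`. -/
theorem result :
    (∀ d : ℝ, 0 < d → ∀ n, HasSum (gw d n) 1) ∧
    (∀ d : ℕ, 2 ≤ d → ∀ lam : ℝ, -(1 / 3) ≤ lam → -1 ≤ (d : ℝ) * lam → (d : ℝ) * lam ^ 2 ≤ 1 →
      Tendsto (aSeq 4 d lam) atTop (𝓝 0)) ∧
    (∀ d lam : ℝ, 0 < d → -(1 / 3) ≤ lam → lam ≤ 1 → -1 ≤ d * lam → d * lam ^ 2 ≤ 1 →
      (∀ n, Summable fun T => gw d n T * aT 4 lam n T) ∧ Tendsto (aGW 4 d lam) atTop (𝓝 0)) ∧
    (∀ d : ℕ, 2 ≤ d → d ≤ 3 → ∀ lam : ℝ, -(1 / 3) ≤ lam → (d : ℝ) * lam ^ 2 ≤ 1 →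
      Tendsto (aSeq 4 d lam) atTop (𝓝 0)) ∧
    (∀ d lam : ℝ, 0 < d → d ≤ 3 → -(1 / 3) ≤ lam → lam ≤ 1 → d * lam ^ 2 ≤ 1 →
      (∀ n, Summable fun T => gw d n T * aT 4 lam n T) ∧ Tendsto (aGW 4 d lam) atTop (𝓝 0)) ∧
    (∀ d : ℕ, 2 ≤ d → ∀ lam : ℝ, (-(11 / 56) < lam ∨ -1 ≤ (d : ℝ) * lam) →
      (d : ℝ) * lam ^ 2 ≤ 1 → Tendsto (aSeq 3 d lam) atTop (𝓝 0)) ∧
    (∀ d lam : ℝ, 0 < d → -(1 / 2) ≤ lam → lam ≤ 1 → (-(11 / 56) < lam ∨ -1 ≤ d * lam) →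
      d * lam ^ 2 ≤ 1 →
      (∀ n, Summable fun T => gw d n T * aT 3 lam n T) ∧ Tendsto (aGW 3 d lam) atTop (𝓝 0)) ∧
    (∀ lam : ℝ, -(1 / 2) ≤ lam → 2 * lam ^ 2 ≤ 1 → Tendsto (aSeq 3 2 lam) atTop (𝓝 0)) ∧
    (∀ d lam : ℝ, 0 < d → d ≤ 2 → -(1 / 2) ≤ lam → lam ≤ 1 → d * lam ^ 2 ≤ 1 →
      (∀ n, Summable fun T => gw d n T * aT 3 lam n T) ∧ Tendsto (aGW 3 d lam) atTop (𝓝 0)) ∧
    (∀ d : ℕ, 26 ≤ d → ∀ lam : ℝ, (d : ℝ) * lam ^ 2 ≤ 1 →
      Tendsto (aSeq 3 d lam) atTop (𝓝 0)) ∧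
    (∀ d lam : ℝ, 26 ≤ d → d * lam ^ 2 ≤ 1 →
      (∀ n, Summable fun T => gw d n T * aT 3 lam n T) ∧ Tendsto (aGW 3 d lam) atTop (𝓝 0)) := by
  obtain ⟨-, r2, -, -, r5, -, r7⟩ := Vale.Agent.Results.P154.A00000_KSTight34Full.result
  refine ⟨r2, regular4', fun d lam hd hlo h1 hl hKS => gw4' hd hlo h1 hl hKS, ?_, ?_, regular3',
    fun d lam hd hlo h1 hl hKS => gw3' hd hlo h1 hl hKS, ?_, ?_, r5, r7⟩
  · intro d hd hd3 lam hlo hKS
    have hd' : (d : ℝ) ≤ 3 := by exact_mod_cast hd3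
    have hd0 : (0 : ℝ) ≤ d := Nat.cast_nonneg d
    refine regular4' d hd lam hlo ?_ hKS
    rcases le_or_gt 0 lam with h0 | h0
    · nlinarith
    · nlinarith
  · intro d lam hd hd3 hlo h1 hKS
    refine gw4' hd hlo h1 ?_ hKS
    rcases le_or_gt 0 lam with h0 | h0
    · nlinarith
    · nlinarith
  · intro lam hlo hKS
    refine regular3' 2 le_rfl lam (Or.inr ?_) (by exact_mod_cast hKS)
    push_cast
    linarith
  · intro d lam hd hd2 hlo h1 hKS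
    refine gw3' hd hlo h1 (Or.inr ?_) hKS
    rcases le_or_gt 0 lam with h0 | h0
    · nlinarith
    · nlinarith

end Vale.Agent.Results.P154.A000000_KSTight34Plus
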