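import Vale.Agent.P154.Q.Inst3
import Vale.Agent.P154.S.SAssembly
import Vale.Agent.P154.Q.Regular
import Vale.Agent.P154.Q.GW
import Vale.Agent.P154.GWAvg
import Vale.Agent.P154.N.Inst3N
import Vale.Agent.P154.N.RegularN
import Vale.Agent.P154.N.GWN

namespace Vale.Agent.Results.P154.A00000_KSTight34Full

open Vale.Agent.P154Q Vale.Agent.P154N Filter Topology
open Vale.Agent.P154 (gw hasSum_gw)

theorem lam_range {d lam : ℝ} (hd : 26 ≤ d) (hKS : d * lam ^ 2 ≤ 1) :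
    -(11 / 56) < lam ∧ lam ≤ 1 := by
  have h1 : 26 * lam ^ 2 ≤ 1 := le_trans (mul_le_mul_of_nonneg_right hd (sq_nonneg lam)) hKS
  constructor <;> nlinarith

theorem regular3 (d : ℕ) (hd : 2 ≤ d) (lam : ℝ) (hl : -(11 / 56) < lam)
    (hKS : (d : ℝ) * lam ^ 2 ≤ 1) : Tendsto (aSeq 3 d lam) atTop (𝓝 0) := by
  rcases le_total 0 lam with h0 | h0
  · exact nonreconstruction_regular coneData3 d hd lam h0 hKS
  · exact nonreconstruction_regularN coneData3N d hd lam ⟨hl, h0⟩ hKS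

theorem gw3 {d lam : ℝ} (hd : 0 < d) (hl : -(11 / 56) < lam) (h1 : lam ≤ 1)
    (hKS : d * lam ^ 2 ≤ 1) :
    (∀ n, Summable fun T => gw d n T * aT 3 lam n T) ∧ Tendsto (aGW 3 d lam) atTop (𝓝 0) := by
  rcases le_total 0 lam with h0 | h0
  · exact gw_nonreconstruction coneData3 hd h0 h1 hKS
  · exact gw_nonreconstructionN coneData3N hd ⟨hl, h0⟩ hKS

/-- Potts channel with three or four states, nonreconstruction up to and including the
Kesten-Stigum bound `d * lam ^ 2 ≤ 1`.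
Four states, `lam ≥ 0`, every degree, both tree models: the rooted `d`-ary tree for every integer
`d ≥ 2`, and the Galton-Watson tree with Poisson(`d`) offspring for every real `d > 0`
(the tree weights sum to one, the series defining `a_n` converges).
Three states: the same for every `lam > -11/56` (both signs), every degree, both tree models; hence
for every `d ≥ 26` and every real `lam`. -/
theorem result :
    (∀ d : ℕ, 2 ≤ d → ∀ lam : ℝ, 0 ≤ lam → (d : ℝ) * lam ^ 2 ≤ 1 →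
      Tendsto (aSeq 4 d lam) atTop (𝓝 0)) ∧
    (∀ d : ℝ, 0 < d → ∀ n, HasSum (gw d n) 1) ∧
    (∀ d lam : ℝ, 0 < d → 0 ≤ lam → lam ≤ 1 → d * lam ^ 2 ≤ 1 →
      (∀ n, Summable fun T => gw d n T * aT 4 lam n T) ∧ Tendsto (aGW 4 d lam) atTop (𝓝 0)) ∧
    (∀ d : ℕ, 2 ≤ d → ∀ lam : ℝ, -(11 / 56) < lam → (d : ℝ) * lam ^ 2 ≤ 1 →
      Tendsto (aSeq 3 d lam) atTop (𝓝 0)) ∧
    (∀ d : ℕ, 26 ≤ d → ∀ lam : ℝ, (d : ℝ) * lam ^ 2 ≤ 1 →
      Tendsto (aSeq 3 d lam) atTop (𝓝 0)) ∧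
    (∀ d lam : ℝ, 0 < d → -(11 / 56) < lam → lam ≤ 1 → d * lam ^ 2 ≤ 1 →
      (∀ n, Summable fun T => gw d n T * aT 3 lam n T) ∧ Tendsto (aGW 3 d lam) atTop (𝓝 0)) ∧
    (∀ d lam : ℝ, 26 ≤ d → d * lam ^ 2 ≤ 1 →
      (∀ n, Summable fun T => gw d n T * aT 3 lam n T) ∧ Tendsto (aGW 3 d lam) atTop (𝓝 0)) := by
  refine ⟨fun d hd lam h0 hKS => nonreconstruction_regular coneDataS d hd lam h0 hKS,
    fun d hd => hasSum_gw hd.le,
    fun d lam hd h0 h1 hKS => gw_nonreconstruction coneDataS hd h0 h1 hKS,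
    regular3, ?_, fun d lam hd hl h1 hKS => gw3 hd hl h1 hKS, ?_⟩
  · intro d hd lam hKS
    have hd' : (26 : ℝ) ≤ d := by exact_mod_cast hd
    exact regular3 d (by omega) lam (lam_range hd' hKS).1 hKS
  · intro d lam hd hKS
    obtain ⟨h1, h2⟩ := lam_range hd hKS
    exact gw3 (by linarith) h1 h2 hKS

end Vale.Agent.Results.P154.A00000_KSTight34Full
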