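import Vale.Agent.P154.Q.Inst3
import Vale.Agent.P154.S.SAssembly
import Vale.Agent.P154.Q.Regular
import Vale.Agent.P154.Q.GW
import Vale.Agent.P154.GWAvg

namespace Vale.Agent.Results.P154.A0000_KSTightFerroFull

open Vale.Agent.P154Q Filter Topology
open Vale.Agent.P154 (gw hasSum_gw)

/-- Ferromagnetic Potts channel with three or four states, both tree models, every degree.
First part: on the rooted `d`-ary tree, for `q = 3` and `q = 4`, every integer `d ≥ 2` and every
`0 ≤ lam` with `d * lam ^ 2 ≤ 1`, the quantity `a_n` tends to `0`.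
Second part: on the Galton-Watson tree with Poisson(`d`) offspring the tree weights sum to one, and
for `q = 3` and `q = 4`, every real `d > 0` and every `0 ≤ lam ≤ 1` with `d * lam ^ 2 ≤ 1`, the
series defining `a_n` converges and `a_n` tends to `0`. -/
theorem result :
    (∀ q : ℕ, q = 3 ∨ q = 4 → ∀ d : ℕ, 2 ≤ d → ∀ lam : ℝ, 0 ≤ lam → (d : ℝ) * lam ^ 2 ≤ 1 →
      Tendsto (aSeq q d lam) atTop (𝓝 0)) ∧
    (∀ d : ℝ, 0 < d → ∀ n, HasSum (gw d n) 1) ∧
    (∀ q : ℕ, q = 3 ∨ q = 4 → ∀ d lam : ℝ, 0 < d → 0 ≤ lam → lam ≤ 1 → d * lam ^ 2 ≤ 1 →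
      (∀ n, Summable fun T => gw d n T * aT q lam n T) ∧ Tendsto (aGW q d lam) atTop (𝓝 0)) := by
  refine ⟨?_, fun d hd => hasSum_gw hd.le, ?_⟩
  · rintro q (rfl | rfl) d hd lam h0 hKS
    · exact nonreconstruction_regular coneData3 d hd lam h0 hKS
    · exact nonreconstruction_regular coneDataS d hd lam h0 hKS
  · rintro q (rfl | rfl) d lam hd h0 h1 hKS
    · exact gw_nonreconstruction coneData3 hd h0 h1 hKS
    · exact gw_nonreconstruction coneDataS hd h0 h1 hKS

end Vale.Agent.Results.P154.A0000_KSTightFerroFull
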