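import Vale.Agent.P154.Q.Inst3
import Vale.Agent.P154.Q.Inst4
import Vale.Agent.P154.Q.Regular
import Vale.Agent.P154.Q.GW
import Vale.Agent.P154.GWAvg

namespace Vale.Agent.Results.P154.A000_KSTightFerro34

open Vale.Agent.P154Q Filter Topology
open Vale.Agent.P154 (gw hasSum_gw summable_gw_mul)

/-- Ferromagnetic Potts channel with three or four states.
First part: on the rooted `d`-ary tree, for `q = 3` and `q = 4`, every integer `d ≥ 2` and every
`0 ≤ lam` with `d * lam ^ 2 ≤ 1`, the quantity `a_n` tends to `0`.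
Second part: on the Galton-Watson tree with Poisson(`d`) offspring, the tree weights sum to one; for
`q = 3`, every real `d > 0` and every `0 ≤ lam ≤ 1` with `d * lam ^ 2 ≤ 1`, the series defining
`a_n` converges and `a_n` tends to `0`; for `q = 4` the same holds when moreover `lam < 5 / 7` or
`d ≤ 1`. -/
theorem result :
    (∀ q : ℕ, q = 3 ∨ q = 4 → ∀ d : ℕ, 2 ≤ d → ∀ lam : ℝ, 0 ≤ lam → (d : ℝ) * lam ^ 2 ≤ 1 →
      Tendsto (aSeq q d lam) atTop (𝓝 0)) ∧
    (∀ d : ℝ, 0 < d → ∀ n, HasSum (gw d n) 1) ∧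
    (∀ d lam : ℝ, 0 < d → 0 ≤ lam → lam ≤ 1 → d * lam ^ 2 ≤ 1 →
      (∀ n, Summable fun T => gw d n T * aT 3 lam n T) ∧ Tendsto (aGW 3 d lam) atTop (𝓝 0)) ∧
    (∀ d lam : ℝ, 0 < d → 0 ≤ lam → lam ≤ 1 → d * lam ^ 2 ≤ 1 → lam < 5 / 7 ∨ d ≤ 1 →
      (∀ n, Summable fun T => gw d n T * aT 4 lam n T) ∧ Tendsto (aGW 4 d lam) atTop (𝓝 0)) := by
  refine ⟨?_, fun d hd => hasSum_gw hd.le, ?_, ?_⟩
  · rintro q (rfl | rfl) d hd lam h0 hKS
    · exact nonreconstruction_regular coneData3 d hd lam h0 hKS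
    · exact nonreconstruction_regularA coneData4K (by norm_num) d hd lam h0 hKS
  · intro d lam hd h0 h1 hKS
    exact gw_nonreconstruction coneData3 hd h0 h1 hKS
  · intro d lam hd h0 h1 hKS h
    rcases h with h | h
    · exact gw_nonreconstructionA coneData4K hd h0 h hKS
    · exact ⟨fun n => summable_gw_mul hd.le (aT_nonneg h0 h1 n) (aT_le_one h0 h1 n),
        gw_nonreconstruction_ext hd h h0 h1⟩

end Vale.Agent.Results.P154.A000_KSTightFerro34
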