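import Vale.Agent.P154.ConeFinal
import Vale.Agent.P154.GWSurv

namespace Vale.Agent.Results.P154.A00_KSTightTernaryFerroBoth

open Vale.Agent.P154 Filter Topology

/-- Three-state ferromagnetic Potts channel, both tree models.
First part: on the rooted `d`-ary tree, for every integer `d ≥ 2` and every `0 ≤ lam` with
`d * lam ^ 2 ≤ 1`, the quantity `a_n` tends to `0`.
Second part: on the Galton-Watson tree with Poisson(`d`) offspring, for every real `d > 0` and
every `0 ≤ lam ≤ 1` with `d * lam ^ 2 ≤ 1`, the tree weights sum to one, the series defining `a_n`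
converges, and `a_n` tends to `0`. -/
theorem result :
    (∀ (d : ℕ), 2 ≤ d → ∀ lam : ℝ, 0 ≤ lam → (d : ℝ) * lam ^ 2 ≤ 1 →
      Tendsto (aSeq d lam) atTop (𝓝 0)) ∧
    (∀ d lam : ℝ, 0 < d → 0 ≤ lam → lam ≤ 1 → d * lam ^ 2 ≤ 1 →
      (∀ n, HasSum (gw d n) 1) ∧ (∀ n, Summable fun T => gw d n T * aT lam n T) ∧
        Tendsto (aGW d lam) atTop (𝓝 0)) :=
  ⟨fun d hd lam h0 hKS => nonreconstruction_of_coneData coneData_final d hd lam h0 hKS,
    fun _ _ hd h0 h1 hKS =>
      ⟨hasSum_gw hd.le, gw_nonreconstruction coneData_final hd h0 h1 hKS⟩⟩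

end Vale.Agent.Results.P154.A00_KSTightTernaryFerroBoth
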