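import Vale.Agent.P154.Bridge
import Vale.Agent.P154.Cert

namespace Vale.Agent.Results.P154.A0_KSTightTernaryFerro

open Vale.Agent.P154 Filter Topology

theorem J1i_eq (E e E' e' : ℝ) : J1i E e E' e' = J1inv E e E' e' := by
  unfold J1i J1inv NnF Q2F
  ring

theorem J2i_eq (E e E' e' : ℝ) : J2i E e E' e' = J2inv E e E' e' := by
  unfold J2i J2inv NnF Q2F PiF
  ring

/-- Three-state ferromagnetic Potts channel on the rooted `d`-ary tree: for every integer `d ≥ 2`
and every `0 ≤ lam` with `d * lam ^ 2 ≤ 1`, the quantity `a_n` tends to `0` (nonreconstruction),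
so the Kesten-Stigum bound is tight for every `d`, including at criticality. -/
theorem result (d : ℕ) (hd : 2 ≤ d) (lam : ℝ) (h0 : 0 ≤ lam) (hKS : (d : ℝ) * lam ^ 2 ≤ 1) :
    Tendsto (aSeq d lam) atTop (𝓝 0) :=
  nonreconstruction_of_inv
    (fun p q hp hq => by rw [J1i_eq]; exact J1inv_nonneg p q hp hq)
    (fun p q hp hq => by rw [J2i_eq]; exact J2inv_nonneg p q hp hq)
    d hd lam h0 hKS

end Vale.Agent.Results.P154.A0_KSTightTernaryFerro
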